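import Vale.Agent.Lib.P038.Sat.Shapes.S6_8t
noncomputable section
namespace Vale.Agent.Lib.P038.Sat.I.M1_8
open Vale.Agent.Lib.P038.Sat
def W : Nat := 82
def M : Nat := 4835703278458516698824703
def GT : Nat := 11422737034114279977611283018662145635905387355640460112488836694393767387119018999482881722732447338626541203133616783272912880427430006254272864656458423725104681114907004721091540711835771811684286853592929076389424458165428028382856483382392305698156499268475844113669145820501777320662046460002693016571196865341470438517860635957240077934670626511650744228484621202945116245251268209395564957716372684294651236126559871009284782624251374657693598095096298084547554731017255217790160224803348992798388515427358776718960392137452859488708040456974542099040239679588366312724547688734721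
def h0 : T := (T.l (nat_lit 0))
def H : T := h0
theorem hlast : getB H 0 = 0 := by decide +kernel
end Vale.Agent.Lib.P038.Sat.I.M1_8
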